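import Vale.Agent.P159.Main
import Vale.Agent.P159.Bog
import Vale.Agent.P159.Ward
import Vale.Agent.P159.Der
import Vale.Agent.P159.Shift
import Vale.Agent.P159.MS
import Vale.Agent.P159.Jen
import Vale.Agent.P159.Res
import Vale.Agent.P159.Res0
import Vale.Agent.P159.Pot
import Vale.Agent.P159.Pot1
import Vale.Agent.P159.Gauss
import Vale.Agent.P159.Circ

open Real Filter Topology Vale.Agent.P159

namespace Vale.Agent.Results.P159.Decay

theorem result (b η : ℝ) (hb : 0 < b) (hη : η < (1 + √(1 + 16 * b ^ 2)) / (8 * π * b ^ 2)) :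
    ∃ C : ℝ, ∀ r : ℕ, 1 ≤ r →
      (∀ R : ℕ, r ≤ R → corr b r R ≤ C * (r : ℝ) ^ (-η)) ∧
      ∀ L : ℝ, Tendsto (fun R : ℕ => corr b r R) atTop (𝓝 L) → L ≤ C * (r : ℝ) ^ (-η) := by
  obtain ⟨C, hC⟩ := main_of (bog_pf (ward_pf (der_pf shift_pf))) (ms_pf shift_pf) jen_pf
    (res_pf res0_pf) (pot_pf (pot1_pf (gauss_pf circ_pf))) b η hb hη
  exact ⟨C, fun r hr => ⟨hC r hr, fun L hL =>
    le_of_tendsto hL ((eventually_ge_atTop r).mono (hC r hr))⟩⟩

end Vale.Agent.Results.P159.Decay
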