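import Vale.Agent.P159.Main2
import Vale.Agent.P159.Bog
import Vale.Agent.P159.Ward
import Vale.Agent.P159.Der
import Vale.Agent.P159.Shift
import Vale.Agent.P159.MS
import Vale.Agent.P159.Jen
import Vale.Agent.P159.Res
import Vale.Agent.P159.Res0
import Vale.Agent.P159.PotG
import Vale.Agent.P159.Pot1
import Vale.Agent.P159.Gauss
import Vale.Agent.P159.Circ
import Vale.Agent.P159.Lat
import Vale.Agent.P159.Int
import Vale.Agent.P159.MC
import Vale.Agent.P159.DN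
import Vale.Agent.P159.Dup
import Vale.Agent.P159.CutB
import Vale.Agent.P159.Chi
import Vale.Agent.P159.Refl
import Vale.Agent.P159.Sum
import Vale.Agent.P159.Neu
import Vale.Agent.P159.Lim
import Vale.Agent.P159.Mono
import Vale.Agent.P159.Gin
import Vale.Agent.P159.Pull
import Vale.Agent.P159.Sim
import Vale.Agent.P159.Fek
import Vale.Agent.P159.Pos
import Vale.Agent.P159.Gri
import Vale.Agent.P159.Leb
import Vale.Agent.P159.Cone
import Vale.Agent.P159.Prod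
import Vale.Agent.P159.Deg

open Real Filter Topology Vale.Agent.P159

namespace Vale.Agent.Results.P159.Length

theorem result :
    (∀ b : ℝ, 0 < b → (∀ r : ℕ, Tendsto (fun R : ℕ => corr b r R) atTop (𝓝 (Cinf b r))) ∧
      Tendsto (fun r : ℕ => -(1 / (r : ℝ)) * log (Cinf b r)) atTop (𝓝 (mass b))) ∧
    (∀ b η : ℝ, 0 < b → η < (1 + √(1 + 16 * b ^ 2)) / (8 * π * b ^ 2) →
      ∃ C : ℝ, ∀ r : ℕ, 1 ≤ r → Cinf b r ≤ C * (r : ℝ) ^ (-η)) ∧
    ∀ η : ℝ, 0 ≤ η → η ≤ 1 → η < (1 + √(1 + 16 * bc ^ 2)) / (8 * π * bc ^ 2) →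
      ∃ c : ℝ, 0 < c ∧ ∀ b : ℝ, 0 < b → bc - 1 / 36 < b → b < bc →
        0 < mass b ∧ c * (bc - b) ^ (-(1 / (2 - η))) ≤ xi b := by
  have hdup := dup_pf prod_pf
  have hpc := pc_pf prod_pf
  have hmono := mono_pf cone_pf hpc hdup
  have hgri := gri_pf cone_pf mc_pf neu_pf
  have hleb := leb_pf (dn_pf cone_pf mc_pf hdup) neu_pf (gin_pf cone_pf hpc hdup) hgri
  have hint := int_pf hmono hleb hgri
  have hlat := lat_pf (pull_pf prod_pf) hmono
  have hlim := lim_pf hlat hleb hgri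
  have hfek := fek_pf hlim (pos_pf hmono)
  have hD := mainG_of (bog_pf (ward_pf (der_pf shift_pf))) (ms_pf shift_pf) jen_pf
    (res_pf res0_pf) (potG_pf (pot1_pf (gauss_pf circ_pf)))
  refine ⟨fun b hb => ⟨(hlim b hb).1, (hfek b hb).1⟩, fun b η hb hη => ?_, fun η h0 h1 hη => ?_⟩
  · obtain ⟨C, -, hC⟩ := hD b η hb hη
    refine ⟨C, fun r hr => le_of_tendsto ((hlim b hb).1 r)
      ((eventually_ge_atTop r).mono fun R hR => ?_)⟩
    have hn : nrm ((((r : ℤ), 0) : ℤ × ℤ) - (0, 0)) = r := by simp [nrm]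
    have := hC R (0, 0) (mem_box.2 (by simp [nrm])) ((r : ℤ), 0)
      (mem_box.2 (by simpa [nrm] using hR)) (by rwa [hn])
    rwa [hn] at this
  · obtain ⟨c, hc, h⟩ := main2_of hmono hgri (chi_pf hint hgri deg_pf)
      (sim_pf (cutB_pf hint hgri deg_pf) hgri) hlim (refl_pf hlat hleb hgri hlim) hfek sum_pf hD
      η h0 h1 hη
    exact ⟨c, hc, fun b hb hb1 hb2 => ⟨mass_pos hfek hb hb2, h b hb hb1 hb2⟩⟩

end Vale.Agent.Results.P159.Length
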